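import Vale.Agent.P224.R2.H797.Unit
import Vale.Agent.P224.R2.H797.B.Rows
import Vale.Agent.P224.R2.H797.B.El
import Vale.Agent.P224.R2.H797.B.DF0

/-!
Certificate B: the identity and the pointwise inequality.
-/

namespace Vale.Agent.P224.R2.H797.B

open Vale.Agent.P224.UE Vale.Agent.P224.POS Vale.Agent.P224.PO Vale.Agent.P224.R2.H797
open scoped RealInnerProductSpace

noncomputable section

/-- the blocks with the multiplier `1` -/
def B1 : List BlkX := [⟨els0, 2305843009213693952, N0⟩,
  ⟨els1, 144115188075855872, N1⟩]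

/-- the blocks with the multiplier `rr` -/
def Br : List BlkX := [⟨els0, 2305843009213693952, N2⟩,
  ⟨els1, 1152921504606846976, N3⟩]

/-- the integers replacing the first four variables (not powers of two: the kernel hashes a numeral
by its last 64 bits) -/
def Ms : List Nat := [
  Nat.add (Nat.pow 2 85) 535385927378644753,
  Nat.add (Nat.pow 2 1174) 1883347088186056653,
  Nat.add (Nat.pow 2 6195) 2156595932099715453,
  Nat.add (Nat.pow 2 31300) 1230627489228826499]

set_option maxRecDepth 100000 in
/-- **The identity**, checked by the kernel. -/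
theorem idM : chkX Ms (PE.sb sbU P) 8 tabU (mulU B1 Br) = true := by
  decide +kernel

lemma hB1 : GoodX B1 :=
  (goodX_cons psd0 (goodX_cons psd1 goodX_nil))

lemma hBr : GoodX Br :=
  (goodX_cons psd2 (goodX_cons psd3 goodX_nil))

/-- **Positivity** of the left side on pair data with a unit vector. -/
theorem pos {E : Type*} [NormedAddCommGroup E] [InnerProductSpace ℝ E] {v x N y w : E}
    (hv : ‖v‖ = 1) (hx : ‖x‖ = 1) (hN : ‖N‖ = 1) (hy : ‖y‖ = 1) (hw : ‖w‖ = 1)
    (hxN : ⟪x, N⟫ = 0) (hyw : ⟪y, w⟫ = 0) (hs : ⟪x, y⟫ < 1) :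
    0 ≤ PE.ev (vh (dv x N y w v)) P :=
  nonneg_of_chkU 8 (by norm_num) idM rfl hB1 hBr hv hx hN hy hw hxN hyw hs

/-- **The pointwise inequality of the certificate.** -/
theorem hpos {E : Type*} [NormedAddCommGroup E] [InnerProductSpace ℝ E] (v x N y w : E)
    (hv : ‖v‖ = 1) (hx : ‖x‖ = 1) (hN : ‖N‖ = 1) (hy : ‖y‖ = 1) (hw : ‖w‖ = 1)
    (hxN : ⟪x, N⟫ = 0) (hyw : ⟪y, w⟫ = 0) (hs : ⟪x, y⟫ < 1) :
    0 ≤ Vale.Agent.P224.UE.W9 (823389915582152 / 843448320000000) (554217073383704 / 843448320000000) (-391082333154424 / 843448320000000) (0 / 843448320000000) (37625431139088 / 843448320000000) (15235925014456 / 843448320000000) (0 / 843448320000000) (-99631862003712 / 843448320000000) (0 / 843448320000000) (dv x N y w v)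
      + hsum 3 (rlH 843448320000000 rows) (dv x N y w v) + XF (-251265958400000 / 843448320000000) (392603060000000 / 843448320000000) (-55828155132000 / 843448320000000) (dv x N y w v)
      + (-931044143637520 / 843448320000000) * (dv x N y w v) 0 ^ 3 :=
  pos_of hs (pos hv hx hN hy hw hxN hyw hs)

end

end Vale.Agent.P224.R2.H797.B
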